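import Vale.Agent.P246.R3.H816.Defs

set_option autoImplicit false

/-!
P246.FreeFactor: row GRP (helper320).
-/

namespace Vale.Agent.P246.H320

open Vale.Agent.P246 Vale.Agent.P246.H816

theorem elt_mul' {H : Type} [Group H] (a b : H) : elt (a * b) = elt a * elt b := by
  simp [elt, MonoidAlgebra.single_mul_single]

theorem elt_one' {H : Type} [Group H] : elt (1 : H) = 1 := rfl

theorem elt_inv_smul {H : Type} [Group H] {n : ℕ} (a : H) (x : Fin n → ZG H) :
    elt a⁻¹ • elt a • x = x := by
  rw [smul_smul, ← elt_mul', inv_mul_cancel, elt_one', one_smul]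

theorem elt_smul_inv {H : Type} [Group H] {n : ℕ} (a : H) (x : Fin n → ZG H) :
    elt a • elt a⁻¹ • x = x := by
  rw [smul_smul, ← elt_mul', mul_inv_cancel, elt_one', one_smul]

/-- the affine map `x ↦ a x + c` -/
noncomputable def aff {H : Type} [Group H] {n : ℕ} (a : H) (c : Fin n → ZG H) :
    Equiv.Perm (Fin n → ZG H) where
  toFun x := elt a • x + c
  invFun x := elt a⁻¹ • (x - c)
  left_inv x := by
    simp only [add_sub_cancel_right]
    exact elt_inv_smul a x
  right_inv x := by
    change elt a • elt a⁻¹ • (x - c) + c = x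
    rw [elt_smul_inv, sub_add_cancel]

/-- the action of `G` -/
noncomputable def affG {G H : Type} [Group G] [Group H] (n : ℕ) (f : G →* H) :
    G →* Equiv.Perm (Fin n → ZG H) where
  toFun g := aff (f g) 0
  map_one' := by
    ext1 x
    simp [aff, elt_one']
  map_mul' a b := by
    ext1 x
    simp [aff, elt_mul', smul_smul]

open Monoid.Coprod in
theorem row : SpecGRP := by
  intro G _ n
  classical
  let H := Monoid.Coprod G (FreeGroup (Fin n))
  let ι : G →* H := inl
  let t : Fin n → H := fun j => inr (FreeGroup.of j)
  let ρ : H →* G := lift (MonoidHom.id G) 1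
  have hρι : ∀ g, ρ (ι g) = g := fun g => lift_apply_inl _ _ _
  have hρt : ∀ j, ρ (t j) = 1 := fun j => lift_apply_inr _ _ _
  have hker : ρ.ker = Subgroup.normalClosure (Set.range t) := by
    apply le_antisymm
    · intro h hh
      let N := Subgroup.normalClosure (Set.range t)
      let q : H →* H ⧸ N := QuotientGroup.mk' N
      have hq : q = q.comp (ι.comp ρ) := by
        apply Monoid.Coprod.hom_ext
        · ext g
          simp [ρ, ι]
        · ext j
          have h1 : q (t j) = 1 := (QuotientGroup.eq_one_iff _).2
            (Subgroup.subset_normalClosure ⟨j, rfl⟩)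
          change q (t j) = q (ι (ρ (t j)))
          rw [h1, hρt, map_one, map_one]
      have h2 : q h = 1 := by
        rw [hq]
        change q (ι (ρ h)) = 1
        rw [(MonoidHom.mem_ker).1 hh, map_one, map_one]
      exact (QuotientGroup.eq_one_iff _).1 h2
    · apply Subgroup.normalClosure_le_normal
      rintro _ ⟨j, rfl⟩
      exact hρt j
  have hgen : Subgroup.closure (Set.range ι ∪ Set.range t) = ⊤ := by
    rw [eq_top_iff, ← range_inl_sup_range_inr (G := G) (H := FreeGroup (Fin n))]
    refine sup_le ?_ ?_
    · rintro _ ⟨g, rfl⟩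
      exact Subgroup.subset_closure (Or.inl ⟨g, rfl⟩)
    · rw [MonoidHom.range_eq_map, ← FreeGroup.closure_range_of, MonoidHom.map_closure]
      rw [Subgroup.closure_le]
      rintro _ ⟨_, ⟨j, rfl⟩, rfl⟩
      exact Subgroup.subset_closure (Or.inr ⟨j, rfl⟩)
  let A : H →* Equiv.Perm (Fin n → ZG H) :=
    lift (affG n ι) (FreeGroup.lift fun j => aff (t j) (Pi.single j 1))
  have hAι : ∀ g x, A (ι g) x = elt (ι g) • x := fun g x => by
    have h1 : A (ι g) = affG n ι g := lift_apply_inl _ _ _
    rw [h1]
    exact add_zero _
  have hAt : ∀ j x, A (t j) x = elt (t j) • x + Pi.single j 1 := fun j x => by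
    have h1 : A (t j) = FreeGroup.lift (fun j => aff (t j) (Pi.single j 1)) (FreeGroup.of j) :=
      lift_apply_inr _ _ _
    rw [h1, FreeGroup.lift_apply_of]
    rfl
  have hA : ∀ h x, A h x = elt h • x + A h 0 := by
    intro h
    have hmem : h ∈ Subgroup.closure (Set.range ι ∪ Set.range t) := by
      rw [hgen]; exact Subgroup.mem_top h
    induction hmem using Subgroup.closure_induction with
    | mem h hh =>
      rcases hh with ⟨g, rfl⟩ | ⟨j, rfl⟩
      · intro x
        rw [hAι, hAι, smul_zero, add_zero]
      · intro x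
        rw [hAt, hAt, smul_zero, zero_add]
    | one =>
      intro x
      rw [map_one, elt_one', one_smul]
      simp
    | mul a b _ _ iha ihb =>
      intro x
      rw [map_mul, Equiv.Perm.mul_apply, Equiv.Perm.mul_apply, iha (A b x), ihb x, iha (A b 0),
        elt_mul', smul_add, smul_smul, add_assoc]
    | inv a _ iha =>
      have h1 : ∀ x, A a⁻¹ x = elt a⁻¹ • (x - A a 0) := by
        intro x
        have h2 : A a (elt a⁻¹ • (x - A a 0)) = x := by
          rw [iha, elt_smul_inv, sub_add_cancel]
        rw [map_inv, Equiv.Perm.inv_def, Equiv.symm_apply_eq, h2]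
      intro x
      rw [h1 x, h1 0, ← smul_add]
      congr 1
      abel
  exact ⟨{ ι := ι, ρ := ρ, t := t, ρι := hρι, ρt := hρt, ker := hker, gen := hgen
           D := fun h => A h 0
           D_mul := fun a b => by
             rw [map_mul, Equiv.Perm.mul_apply, hA a (A b 0), add_comm]
           D_ι := fun g => by rw [hAι, smul_zero]
           D_t := fun j => by rw [hAt, smul_zero, zero_add] }⟩

end Vale.Agent.P246.H320
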